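import Crest.Agent.H3Mod.Calc

set_option autoImplicit false

namespace Crest.Agent.H3Mod

open Crest.OpAlg MeasureTheory Filter Topology BoundedContinuousFunction
open scoped InnerProductSpace

variable {H : Type*} [NormedAddCommGroup H] [InnerProductSpace ℂ H] [CompleteSpace H]

theorem mem_of_comm (M : VonNeumannAlgebra H) (y : H →L[ℂ] H)
    (h : ∀ z ∈ M.commutant, z * y = y * z) : y ∈ M := by
  rw [← M.commutant_commutant, VonNeumannAlgebra.mem_commutant_iff]
  exact h

theorem comm_of_mem {M : VonNeumannAlgebra H} {y z : H →L[ℂ] H} (hy : y ∈ M)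
    (hz : z ∈ M.commutant) (v : H) : z (y v) = y (z v) := by
  have := (VonNeumannAlgebra.mem_commutant_iff.1 hz) y hy
  change (z * y) v = (y * z) v
  rw [this]

theorem smul_mem' {M : VonNeumannAlgebra H} {y : H →L[ℂ] H} (c : ℂ) (hy : y ∈ M) : c • y ∈ M :=
  M.toStarSubalgebra.smul_mem hy c

theorem halfExp_of_mem (S : ModularDatum H) {a : H →L[ℂ] H} (ha : a ∈ S.M) :
    S.D.HalfExp (a S.vac) (S.J (star a S.vac)) := by
  have : (a S.vac, star a S.vac) ∈ closure
      (Set.range fun a : S.M => ((a : H →L[ℂ] H) S.vac, star (a : H →L[ℂ] H) S.vac)) :=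
    subset_closure ⟨⟨a, ha⟩, rfl⟩
  rw [S.tomita] at this
  exact this

theorem inner_J (S : ModularDatum H) (x y : H) : ⟪S.J x, S.J y⟫_ℂ = ⟪y, x⟫_ℂ := by
  have hre : ∀ x y : H, (⟪S.J x, S.J y⟫_ℂ).re = (⟪x, y⟫_ℂ).re := by
    intro x y
    have h1 := re_inner_eq_norm_add_mul_self_sub_norm_sub_mul_self_div_four (𝕜 := ℂ) (S.J x) (S.J y)
    have h2 := re_inner_eq_norm_add_mul_self_sub_norm_sub_mul_self_div_four (𝕜 := ℂ) x y
    rw [← map_add, ← map_sub, S.J.norm_map, S.J.norm_map] at h1
    exact h1.trans h2.symm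
  apply Complex.ext
  · rw [hre, ← inner_conj_symm y x, Complex.conj_re]
  · have h := hre x (Complex.I • y)
    rw [LinearIsometryEquiv.map_smulₛₗ, inner_smul_right, inner_smul_right] at h
    rw [← inner_conj_symm y x, Complex.conj_im]
    simp at h
    linarith

theorem inner_graph (S : ModularDatum H) {x y : H} (h : S.D.HalfExp x (S.J y)) :
    ⟪S.vac, y⟫_ℂ = ⟪x, S.vac⟫_ℂ := by
  have hmem : (x, y) ∈ closure
      (Set.range fun a : S.M => ((a : H →L[ℂ] H) S.vac, star (a : H →L[ℂ] H) S.vac)) := by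
    rw [S.tomita]; exact h
  have hcl : IsClosed {p : H × H | ⟪S.vac, p.2⟫_ℂ = ⟪p.1, S.vac⟫_ℂ} :=
    isClosed_eq (by fun_prop) (by fun_prop)
  refine (closure_minimal ?_ hcl) hmem
  rintro _ ⟨a, rfl⟩
  exact inner_star_right _ _ _

/-- multiply a compactly supported bounded function by a continuous function -/
noncomputable def cmul (k : ℝ → ℂ) (hk : Continuous k) (χ : ℝ →ᵇ ℂ)
    (hχ : HasCompactSupport (χ : ℝ → ℂ)) : ℝ →ᵇ ℂ :=
  ofCompactSupport (fun u => k u * χ u) (hk.mul χ.continuous) (hχ.mul_left (f := k))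

theorem cmul_apply (k : ℝ → ℂ) (hk : Continuous k) (χ : ℝ →ᵇ ℂ)
    (hχ : HasCompactSupport (χ : ℝ → ℂ)) (u : ℝ) : cmul k hk χ hχ u = k u * χ u := rfl

theorem cmul_support (k : ℝ → ℂ) (hk : Continuous k) (χ : ℝ →ᵇ ℂ)
    (hχ : HasCompactSupport (χ : ℝ → ℂ)) : HasCompactSupport (cmul k hk χ hχ : ℝ → ℂ) :=
  hχ.mul_left (f := k)

theorem continuous_expHalf : Continuous fun u : ℝ => ((Real.exp (u / 2) : ℝ) : ℂ) := by fun_prop

theorem continuous_expOne : Continuous fun u : ℝ => ((Real.exp u : ℝ) : ℂ) := by fun_prop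

theorem vac_exp (S : ModularDatum H) (χ : ℝ →ᵇ ℂ) (hχ : HasCompactSupport (χ : ℝ → ℂ)) :
    S.D.apply (cmul _ continuous_expOne χ hχ) S.vac = S.D.apply χ S.vac := by
  have hχ' : HasCompactSupport ((star χ : ℝ →ᵇ ℂ) : ℝ → ℂ) :=
    hχ.comp_left (g := fun z : ℂ => star z) (by simp)
  have h1 : S.D.HalfExp S.vac (S.J S.vac) := by
    have := halfExp_of_mem S (one_mem S.M)
    simpa using this
  have h2 := h1 (cmul _ continuous_expHalf χ hχ) (cmul _ continuous_expOne χ hχ) (fun u => by
    simp only [cmul_apply]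
    have : Real.exp u = Real.exp (u / 2) * Real.exp (u / 2) := by
      rw [← Real.exp_add]; congr 1; ring
    rw [this]; push_cast; ring)
  rw [← h2]
  refine ext_inner_left ℂ fun x => ?_
  have h3 : S.D.HalfExp (S.D.apply (star χ) x)
      (S.J (S.J (S.D.apply (cmul _ continuous_expHalf (star χ) hχ') x))) := by
    intro f g hfg
    rw [S.J_J, ← calc_mul_apply, ← calc_mul_apply]
    congr 2
    ext u
    simp only [BoundedContinuousFunction.mul_apply, cmul_apply, hfg]
    ring
  have h4 := inner_graph S h3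
  rw [map_star, inner_star_left] at h4
  rw [← h4, ← S.J_J S.vac, inner_J, S.J_J]
  have h5 : cmul _ continuous_expHalf (star χ) hχ' = star (cmul _ continuous_expHalf χ hχ) := by
    ext u
    simp only [cmul_apply, BoundedContinuousFunction.star_apply, star_mul', Complex.star_def,
      Complex.conj_ofReal]
  rw [h5, map_star, inner_star_left]

theorem continuous_dslope_zero {g : ℝ → ℂ} (hg : Differentiable ℝ g) : Continuous (dslope g 0) := by
  rw [continuous_iff_continuousAt]
  intro u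
  by_cases hu : u = 0
  · subst hu; exact continuousAt_dslope_same.2 (hg 0)
  · exact (continuousAt_dslope_of_ne hu).2 hg.continuous.continuousAt

theorem wave_vac (S : ModularDatum H) (t : ℝ) : S.D.wave t S.vac = S.vac := by
  let p : ℝ → ℂ := fun u => Complex.exp (Complex.I * ((t * u : ℝ) : ℂ))
  let q : ℝ → ℂ := fun u => ((Real.exp u : ℝ) : ℂ)
  have hp : Differentiable ℝ p := by
    have : Differentiable ℝ fun u : ℝ => ((t * u : ℝ) : ℂ) :=
      Complex.ofRealCLM.differentiable.comp (by fun_prop : Differentiable ℝ fun u : ℝ => t * u)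
    exact (this.const_mul _).cexp
  have hq : Differentiable ℝ q :=
    Complex.ofRealCLM.differentiable.comp Real.differentiable_exp
  have hq0 : ∀ u, dslope q 0 u ≠ 0 := by
    intro u
    by_cases hu : u = 0
    · subst hu
      rw [dslope_same]
      have : HasDerivAt q ((Real.exp 0 : ℝ) : ℂ) 0 := (Real.hasDerivAt_exp 0).ofReal_comp
      rw [this.deriv]; simp
    · intro h0
      have := sub_smul_dslope q 0 u
      rw [h0, smul_zero] at this
      have h2 : Real.exp u = Real.exp 0 := by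
        have h3 : q u = q 0 := (sub_eq_zero.1 this.symm)
        exact Complex.ofReal_injective h3
      exact hu (Real.exp_injective h2)
  let k : ℝ → ℂ := fun u => dslope p 0 u / dslope q 0 u
  have hk : Continuous k :=
    (continuous_dslope_zero hp).div (continuous_dslope_zero hq) hq0
  have hkq : ∀ u, (q u - 1) * k u = p u - 1 := by
    intro u
    have h1 := sub_smul_dslope q 0 u
    have h2 := sub_smul_dslope p 0 u
    have q0 : q 0 = 1 := by simp [q]
    have p0 : p 0 = 1 := by simp [p]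
    rw [q0] at h1; rw [p0] at h2
    rw [← h1, ← h2]
    simp only [k, Complex.real_smul]
    field_simp [hq0 u]
  have := calc_eq_zero_of_cutoff S.D S.vac (LineCalculus.character t - 1) (fun χ hχ => by
    have h1 := vac_exp S (cmul k hk χ hχ) (cmul_support _ _ _ _)
    have h2 : (LineCalculus.character t - 1) * χ =
        cmul _ continuous_expOne (cmul k hk χ hχ) (cmul_support _ _ _ _) - cmul k hk χ hχ := by
      ext u
      have := hkq u
      simp only [BoundedContinuousFunction.mul_apply, BoundedContinuousFunction.sub_apply,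
        cmul_apply, character_apply, BoundedContinuousFunction.coe_one, Pi.one_apply]
      change (p u - 1) * χ u = q u * (k u * χ u) - k u * χ u
      rw [← this]; ring
    rw [h2, map_sub, _root_.sub_apply, h1, sub_self])
  rw [map_sub, map_one] at this
  unfold LineCalculus.wave
  simpa [sub_eq_zero] using this

theorem norm_star_vac_le (S : ModularDatum H) {a : H →L[ℂ] H} (ha : a ∈ S.M) {lo hi : ℝ}
    (hs : S.D.SupportedIn (Set.Icc lo hi) (a S.vac)) :
    ‖star a S.vac‖ ≤ Real.exp (hi / 2) * ‖a S.vac‖ := by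
  have h1 := halfExp_of_mem S ha
  rw [← S.J.norm_map]
  set y := S.J (star a S.vac)
  refine le_of_forall_pos_le_add fun ε hε => ?_
  obtain ⟨χ, hχ, hχ1, hχy⟩ := exists_cutoff S.D y ε hε
  have h2 := h1 χ (cmul _ continuous_expHalf χ hχ) (fun u => by simp only [cmul_apply]; ring)
  have hc : Continuous fun u : ℝ => ((Real.exp (min u hi / 2) : ℝ) : ℂ) := by fun_prop
  have h3 := calc_congr hs (cmul _ continuous_expHalf χ hχ) (cmul _ hc χ hχ) (fun u hu => by
    simp only [cmul_apply, min_eq_left hu.2])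
  have h4 : ‖cmul _ hc χ hχ‖ ≤ Real.exp (hi / 2) := by
    rw [BoundedContinuousFunction.norm_le (Real.exp_pos _).le]
    intro u
    rw [cmul_apply, norm_mul, Complex.norm_real, Real.norm_eq_abs, abs_of_pos (Real.exp_pos _)]
    have h5 : Real.exp (min u hi / 2) ≤ Real.exp (hi / 2) :=
      Real.exp_le_exp.2 (by linarith [min_le_right u hi])
    have h6 := (χ.norm_coe_le_norm u).trans hχ1
    nlinarith [Real.exp_pos (min u hi / 2), norm_nonneg (χ u)]
  have h7 : ‖S.D.apply χ y‖ ≤ Real.exp (hi / 2) * ‖a S.vac‖ := by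
    rw [h2, h3]
    exact (calc_apply_norm_le _ _ _).trans (by gcongr)
  have h8 : ‖y‖ ≤ ‖S.D.apply χ y‖ + ‖S.D.apply χ y - y‖ := by
    have := norm_sub_le (S.D.apply χ y) (S.D.apply χ y - y)
    simpa using this
  linarith

theorem flow_mem' (S : ModularDatum H) (t : ℝ) {a : H →L[ℂ] H} (ha : a ∈ S.M) : S.flow t a ∈ S.M :=
  S.flow_mem t a ha

theorem flow_apply (S : ModularDatum H) (t : ℝ) (a : H →L[ℂ] H) (v : H) :
    S.flow t a v = S.D.wave t (a (S.D.wave (-t) v)) := rfl

theorem flow_vac (S : ModularDatum H) (t : ℝ) (a : H →L[ℂ] H) :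
    S.flow t a S.vac = S.D.wave t (a S.vac) := by
  rw [flow_apply, wave_vac]

theorem norm_flow_apply_le (S : ModularDatum H) (t : ℝ) (a : H →L[ℂ] H) (v : H) :
    ‖S.flow t a v‖ ≤ ‖a‖ * ‖v‖ := by
  rw [flow_apply, norm_wave_apply]
  refine (a.le_opNorm _).trans ?_
  rw [norm_wave_apply]

theorem star_flow (S : ModularDatum H) (t : ℝ) (a : H →L[ℂ] H) :
    star (S.flow t a) = S.flow t (star a) := by
  simp only [ModularDatum.flow, star_mul, star_wave, neg_neg, mul_assoc]

theorem flow_mul (S : ModularDatum H) (t : ℝ) (a b : H →L[ℂ] H) :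
    S.flow t (a * b) = S.flow t a * S.flow t b := by
  ext v
  change S.flow t (a * b) v = S.flow t a (S.flow t b v)
  simp only [flow_apply, wave_neg_wave]
  rfl

theorem continuous_flow_apply (S : ModularDatum H) (a : H →L[ℂ] H) (v : H) :
    Continuous fun t : ℝ => S.flow t a v := by
  simp only [flow_apply]
  have h1 : Continuous fun t : ℝ => a (S.D.wave (-t) v) :=
    a.continuous.comp ((continuous_wave S.D v).comp continuous_neg)
  rw [continuous_iff_continuousAt]
  intro t₀
  have h2 : Tendsto (fun t => S.D.wave t (a (S.D.wave (-t₀) v))) (𝓝 t₀)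
      (𝓝 (S.D.wave t₀ (a (S.D.wave (-t₀) v)))) := (continuous_wave S.D _).continuousAt
  have h3 : Tendsto (fun t => S.D.wave t (a (S.D.wave (-t) v) - a (S.D.wave (-t₀) v))) (𝓝 t₀)
      (𝓝 0) := by
    rw [tendsto_zero_iff_norm_tendsto_zero]
    simp only [norm_wave_apply]
    rw [← tendsto_zero_iff_norm_tendsto_zero]
    exact tendsto_sub_nhds_zero_iff.2 h1.continuousAt
  have h4 := h3.add h2
  simp only [map_sub, sub_add_cancel, zero_add] at h4
  exact h4

theorem integrable_smul_flow (S : ModularDatum H) (μ : Measure ℝ) (G : ℝ → ℂ) (hG : Integrable G μ)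
    (c : ℝ) (a : H →L[ℂ] H) (v : H) : Integrable (fun t => G t • S.flow (c * t) a v) μ := by
  have hc : Continuous fun t => S.flow (c * t) a v :=
    (continuous_flow_apply S a v).comp (continuous_const.mul continuous_id)
  refine Integrable.smul_of_top_left hG
    (memLp_top_of_bound hc.aestronglyMeasurable (‖a‖ * ‖v‖) ?_)
  exact Eventually.of_forall fun t => norm_flow_apply_le S _ a v

theorem exists_smear (S : ModularDatum H) (μ : Measure ℝ) (G : ℝ → ℂ) (hG : Integrable G μ)
    (c : ℝ) {a : H →L[ℂ] H} (ha : a ∈ S.M) :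
    ∃ y ∈ S.M, ‖y‖ ≤ (∫ t, ‖G t‖ ∂μ) * ‖a‖ ∧ ∀ v, y v = ∫ t, G t • S.flow (c * t) a v ∂μ := by
  have hI : 0 ≤ ∫ t, ‖G t‖ ∂μ := integral_nonneg fun t => norm_nonneg _
  let L : H →ₗ[ℂ] H :=
    { toFun := fun v => ∫ t, G t • S.flow (c * t) a v ∂μ
      map_add' := fun v w => by
        simp only [map_add, smul_add]
        exact integral_add (integrable_smul_flow S μ G hG c a v)
          (integrable_smul_flow S μ G hG c a w)
      map_smul' := fun z v => by
        simp only [map_smul, RingHom.id_apply]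
        rw [← integral_smul]
        congr 1; ext t
        rw [smul_comm] }
  have hL : ∀ v, ‖L v‖ ≤ ((∫ t, ‖G t‖ ∂μ) * ‖a‖) * ‖v‖ := by
    intro v
    refine (norm_integral_le_integral_norm _).trans ?_
    rw [mul_assoc, ← integral_mul_const]
    refine integral_mono (integrable_smul_flow S μ G hG c a v).norm (hG.norm.mul_const _) ?_
    intro t
    simp only [norm_smul]
    gcongr
    exact norm_flow_apply_le S _ a v
  refine ⟨L.mkContinuous _ hL, ?_, L.mkContinuous_norm_le (by positivity) hL, fun v => rfl⟩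
  refine mem_of_comm _ _ fun z hz => ?_
  ext v
  change z (∫ t, G t • S.flow (c * t) a v ∂μ) = ∫ t, G t • S.flow (c * t) a (z v) ∂μ
  rw [← z.integral_comp_comm (integrable_smul_flow S μ G hG c a v)]
  congr 1; ext t
  rw [map_smul, comm_of_mem (flow_mem' S _ ha) hz]

/-- spectral smoothing inside the algebra -/
theorem exists_smooth (S : ModularDatum H) : ∃ K : ℝ, 0 ≤ K ∧ ∀ s δ : ℝ, 0 < δ →
    ∃ F : ℝ →ᵇ ℂ, ‖F‖ ≤ 1 ∧ (∀ u ∈ Set.Icc (s - δ) (s + δ), F u = 1) ∧
      (∀ u, u ∉ Set.Icc (s - 2 * δ) (s + 2 * δ) → F u = 0) ∧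
      ∀ a ∈ S.M, ∃ y ∈ S.M, ‖y‖ ≤ K * ‖a‖ ∧ y S.vac = S.D.apply F (a S.vac) := by
  obtain ⟨G, hG, h⟩ := exists_bump
  refine ⟨∫ t, ‖G t‖, integral_nonneg fun t => norm_nonneg _, fun s δ hδ => ?_⟩
  obtain ⟨F, G', c, h1, h2, h3, h4, h5, h6⟩ := h s δ hδ
  refine ⟨F, h1, h2, h3, fun a ha => ?_⟩
  obtain ⟨y, hy, hy1, hy2⟩ := exists_smear S volume G' h4 c ha
  refine ⟨y, hy, by simpa only [h5] using hy1, ?_⟩
  rw [hy2, ← integral_wave S.D G' h4 c F h6]
  simp only [flow_vac]

end Crest.Agent.H3Mod
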