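import Mathlib
import Crest.Prelude.Def_ModularData

set_option autoImplicit false

namespace Crest.Agent.H3Mod

open Crest.OpAlg MeasureTheory Filter Topology BoundedContinuousFunction
open scoped InnerProductSpace

variable {H : Type*} [NormedAddCommGroup H] [InnerProductSpace ℂ H] [CompleteSpace H]

theorem calc_norm_le (D : LineCalculus H) (f : ℝ →ᵇ ℂ) : ‖D.apply f‖ ≤ ‖f‖ :=
  NonUnitalStarAlgHom.norm_apply_le D.apply f

theorem calc_apply_norm_le (D : LineCalculus H) (f : ℝ →ᵇ ℂ) (x : H) :
    ‖D.apply f x‖ ≤ ‖f‖ * ‖x‖ :=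
  ((D.apply f).le_opNorm x).trans (by gcongr; exact calc_norm_le D f)

theorem calc_mul_apply (D : LineCalculus H) (f g : ℝ →ᵇ ℂ) (x : H) :
    D.apply (f * g) x = D.apply f (D.apply g x) := by
  rw [map_mul]; rfl

theorem character_apply (t u : ℝ) :
    LineCalculus.character t u = Complex.exp (Complex.I * ((t * u : ℝ) : ℂ)) := rfl

theorem norm_character_le (t : ℝ) : ‖LineCalculus.character t‖ ≤ 1 := by
  rw [BoundedContinuousFunction.norm_le zero_le_one]
  intro u
  rw [character_apply, Complex.norm_exp]; simp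

theorem character_add (s t : ℝ) :
    LineCalculus.character (s + t) = LineCalculus.character s * LineCalculus.character t := by
  ext u
  simp only [character_apply, BoundedContinuousFunction.mul_apply]
  rw [← Complex.exp_add]; congr 1; push_cast; ring

theorem character_zero : LineCalculus.character 0 = 1 := by
  ext u
  simp [character_apply]

theorem star_character (t : ℝ) : star (LineCalculus.character t) = LineCalculus.character (-t) := by
  ext u
  simp only [character_apply, BoundedContinuousFunction.star_apply]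
  rw [Complex.star_def, ← Complex.exp_conj]; congr 1
  simp

theorem wave_add (D : LineCalculus H) (s t : ℝ) : D.wave (s + t) = D.wave s * D.wave t := by
  simp only [LineCalculus.wave, character_add, map_mul]

theorem wave_zero (D : LineCalculus H) : D.wave 0 = 1 := by
  simp only [LineCalculus.wave, character_zero, map_one]

theorem star_wave (D : LineCalculus H) (t : ℝ) : star (D.wave t) = D.wave (-t) := by
  simp only [LineCalculus.wave, ← star_character, map_star]

theorem wave_neg_mul (D : LineCalculus H) (t : ℝ) : D.wave (-t) * D.wave t = 1 := by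
  rw [← wave_add, neg_add_cancel, wave_zero]

theorem wave_mul_neg (D : LineCalculus H) (t : ℝ) : D.wave t * D.wave (-t) = 1 := by
  rw [← wave_add, add_neg_cancel, wave_zero]

theorem wave_wave_neg (D : LineCalculus H) (t : ℝ) (x : H) : D.wave t (D.wave (-t) x) = x := by
  change (D.wave t * D.wave (-t)) x = x
  rw [wave_mul_neg]; rfl

theorem wave_neg_wave (D : LineCalculus H) (t : ℝ) (x : H) : D.wave (-t) (D.wave t x) = x := by
  change (D.wave (-t) * D.wave t) x = x
  rw [wave_neg_mul]; rfl

theorem wave_wave (D : LineCalculus H) (s t : ℝ) (x : H) :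
    D.wave s (D.wave t x) = D.wave (s + t) x := by
  rw [wave_add]; rfl

theorem inner_star_left (a : H →L[ℂ] H) (x y : H) : ⟪star a x, y⟫_ℂ = ⟪x, a y⟫_ℂ :=
  ContinuousLinearMap.adjoint_inner_left a y x

theorem inner_star_right (a : H →L[ℂ] H) (x y : H) : ⟪x, star a y⟫_ℂ = ⟪a x, y⟫_ℂ :=
  ContinuousLinearMap.adjoint_inner_right a x y

theorem inner_wave_left (D : LineCalculus H) (t : ℝ) (x y : H) :
    ⟪D.wave t x, y⟫_ℂ = ⟪x, D.wave (-t) y⟫_ℂ := by
  rw [← star_wave, inner_star_right]

theorem inner_wave_right (D : LineCalculus H) (t : ℝ) (x y : H) :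
    ⟪x, D.wave t y⟫_ℂ = ⟪D.wave (-t) x, y⟫_ℂ := by
  rw [← star_wave, inner_star_left]

theorem norm_wave_le (D : LineCalculus H) (t : ℝ) : ‖D.wave t‖ ≤ 1 :=
  (calc_norm_le D _).trans (norm_character_le t)

theorem norm_wave_apply (D : LineCalculus H) (t : ℝ) (x : H) : ‖D.wave t x‖ = ‖x‖ := by
  have h1 : ∀ s y, ‖D.wave s y‖ ≤ ‖y‖ := fun s y =>
    ((D.wave s).le_opNorm y).trans (by
      have := norm_wave_le D s
      nlinarith [norm_nonneg y])
  refine le_antisymm (h1 t x) ?_
  calc ‖x‖ = ‖D.wave (-t) (D.wave t x)‖ := by rw [wave_neg_wave]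
    _ ≤ _ := h1 _ _

theorem wave_comm (D : LineCalculus H) (t : ℝ) (f : ℝ →ᵇ ℂ) (x : H) :
    D.apply f (D.wave t x) = D.wave t (D.apply f x) := by
  unfold LineCalculus.wave
  rw [← calc_mul_apply, ← calc_mul_apply, mul_comm]

/-- Lipschitz estimate for `t ↦ character t * f` when `f` has compact support. -/
theorem character_mul_lipschitz (f : ℝ →ᵇ ℂ) (hf : HasCompactSupport (f : ℝ → ℂ)) :
    ∃ R : ℝ, 0 ≤ R ∧ ∀ s t : ℝ,
      ‖LineCalculus.character s * f - LineCalculus.character t * f‖ ≤ R * |s - t| := by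
  obtain ⟨R, hR0, hR⟩ := hf.isCompact.isBounded.exists_pos_norm_le
  refine ⟨R * ‖f‖, by positivity, fun s t => ?_⟩
  rw [BoundedContinuousFunction.norm_le (by positivity)]
  intro u
  by_cases hu : u ∈ tsupport (f : ℝ → ℂ)
  · have h1 := hR u hu
    simp only [BoundedContinuousFunction.sub_apply, BoundedContinuousFunction.mul_apply,
      character_apply]
    rw [← sub_mul, norm_mul]
    have h2 : ‖Complex.exp (Complex.I * ((s * u : ℝ) : ℂ)) -
        Complex.exp (Complex.I * ((t * u : ℝ) : ℂ))‖ ≤ |s - t| * R := by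
      have : Complex.exp (Complex.I * ((s * u : ℝ) : ℂ)) -
          Complex.exp (Complex.I * ((t * u : ℝ) : ℂ)) =
          Complex.exp (Complex.I * ((t * u : ℝ) : ℂ)) *
            (Complex.exp (Complex.I * (((s - t) * u : ℝ) : ℂ)) - 1) := by
        rw [mul_sub, ← Complex.exp_add, mul_one]; congr 2; push_cast; ring
      rw [this, norm_mul]
      have h3 : ‖Complex.exp (Complex.I * ((t * u : ℝ) : ℂ))‖ = 1 := by
        rw [Complex.norm_exp]; simp
      rw [h3, one_mul]
      refine (Real.norm_exp_I_mul_ofReal_sub_one_le).trans ?_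
      rw [norm_mul]
      exact mul_le_mul_of_nonneg_left h1 (norm_nonneg _)
    calc _ ≤ (|s - t| * R) * ‖f‖ := by
          gcongr
          exact f.norm_coe_le_norm u
      _ = _ := by ring
  · have : f u = 0 := image_eq_zero_of_notMem_tsupport hu
    simp only [BoundedContinuousFunction.sub_apply, BoundedContinuousFunction.mul_apply, this,
      mul_zero, sub_zero, norm_zero]
    positivity

theorem continuous_character_mul (f : ℝ →ᵇ ℂ) (hf : HasCompactSupport (f : ℝ → ℂ)) :
    Continuous fun t : ℝ => LineCalculus.character t * f := by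
  obtain ⟨R, hR0, hR⟩ := character_mul_lipschitz f hf
  have : LipschitzWith ⟨R, hR0⟩ fun t : ℝ => LineCalculus.character t * f := by
    refine LipschitzWith.of_dist_le_mul fun s t => ?_
    rw [dist_eq_norm, Real.dist_eq]
    exact hR s t
  exact this.continuous

/-- evaluation of the calculus at a vector as a continuous linear map -/
noncomputable def calcAt (D : LineCalculus H) (x : H) : (ℝ →ᵇ ℂ) →L[ℂ] H :=
  LinearMap.mkContinuous
    { toFun := fun f => D.apply f x
      map_add' := fun f g => by rw [map_add]; rfl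
      map_smul' := fun c f => by rw [map_smul]; rfl }
    ‖x‖ (fun f => by
      have := calc_apply_norm_le D f x
      simpa [mul_comm] using this)

theorem calcAt_apply (D : LineCalculus H) (x : H) (f : ℝ →ᵇ ℂ) : calcAt D x f = D.apply f x := rfl

theorem continuous_wave (D : LineCalculus H) (x : H) : Continuous fun t : ℝ => D.wave t x := by
  refine continuous_of_uniform_approx_of_continuous fun U hU => ?_
  obtain ⟨ε, hε, hεU⟩ := Metric.mem_uniformity_dist.1 hU
  obtain ⟨f, hf, hfx⟩ := D.window x ε hε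
  refine ⟨fun t => calcAt D x (LineCalculus.character t * f),
    (calcAt D x).continuous.comp (continuous_character_mul f hf), fun t => hεU ?_⟩
  beta_reduce
  rw [calcAt_apply, calc_mul_apply, dist_eq_norm]
  change ‖D.wave t x - D.wave t (D.apply f x)‖ < ε
  rw [← map_sub, norm_wave_apply, norm_sub_rev]
  exact hfx

/-- The Fourier representation of the calculus. -/
theorem integral_wave (D : LineCalculus H) (G : ℝ → ℂ) (hG : Integrable G) (c : ℝ)
    (F : ℝ →ᵇ ℂ) (hF : ∀ u : ℝ, F u = ∫ t, G t * Complex.exp (Complex.I * ((c * t * u : ℝ) : ℂ)))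
    (x : H) : ∫ t, G t • D.wave (c * t) x = D.apply F x := by
  have hint : ∀ y : H, Integrable fun t => G t • D.wave (c * t) y := by
    intro y
    have hc : Continuous fun t => D.wave (c * t) y :=
      (continuous_wave D y).comp (continuous_const.mul continuous_id)
    refine Integrable.smul_of_top_left hG (memLp_top_of_bound hc.aestronglyMeasurable ‖y‖ ?_)
    exact Eventually.of_forall fun t => (norm_wave_apply D _ y).le
  have key : ∀ f : ℝ →ᵇ ℂ, HasCompactSupport (f : ℝ → ℂ) →
      ∫ t, G t • D.wave (c * t) (D.apply f x) = D.apply F (D.apply f x) := by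
    intro f hf
    have hc : Continuous fun t : ℝ => LineCalculus.character (c * t) * f :=
      (continuous_character_mul f hf).comp (continuous_const.mul continuous_id)
    have hi : Integrable fun t => G t • (LineCalculus.character (c * t) * f) := by
      refine Integrable.smul_of_top_left hG (memLp_top_of_bound hc.aestronglyMeasurable ‖f‖ ?_)
      refine Eventually.of_forall fun t => (norm_mul_le _ _).trans ?_
      have := norm_character_le (c * t)
      nlinarith [norm_nonneg f]
    have h1 : ∫ t, G t • (LineCalculus.character (c * t) * f) = F * f := by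
      ext u
      have := (BoundedContinuousFunction.evalCLM ℂ (β := ℂ) u).integral_comp_comm hi
      simp only [BoundedContinuousFunction.evalCLM_apply] at this
      rw [← this, BoundedContinuousFunction.mul_apply, hF, ← integral_mul_const]
      congr 1; ext t
      simp [character_apply, mul_assoc]
    have h2 := (calcAt D x).integral_comp_comm hi
    rw [h1, calcAt_apply, calc_mul_apply] at h2
    rw [← h2]
    congr 1; ext t
    rw [map_smul, calcAt_apply, calc_mul_apply]; rfl
  refine eq_of_forall_dist_le fun ε hε => ?_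
  set K : ℝ := (∫ t, ‖G t‖) + ‖F‖ + 1 with hK
  have hI : 0 ≤ ∫ t, ‖G t‖ := integral_nonneg fun t => norm_nonneg _
  have hKpos : 0 < K := by positivity
  obtain ⟨f, hf, hfx⟩ := D.window x (ε / K) (by positivity)
  have e1 : (∫ t, G t • D.wave (c * t) x) - D.apply F x =
      (∫ t, G t • D.wave (c * t) (x - D.apply f x)) - D.apply F (x - D.apply f x) := by
    simp only [map_sub, smul_sub]
    rw [integral_sub (hint _) (hint _), key f hf]
    abel
  rw [dist_eq_norm, e1]
  rw [norm_sub_rev] at hfx
  have b1 : ‖∫ t, G t • D.wave (c * t) (x - D.apply f x)‖ ≤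
      (∫ t, ‖G t‖) * ‖x - D.apply f x‖ := by
    refine (norm_integral_le_integral_norm _).trans (le_of_eq ?_)
    rw [← integral_mul_const]
    congr 1; ext t
    rw [norm_smul, norm_wave_apply]
  have b2 := calc_apply_norm_le D F (x - D.apply f x)
  calc _ ≤ (∫ t, ‖G t‖) * ‖x - D.apply f x‖ + ‖F‖ * ‖x - D.apply f x‖ :=
        (norm_sub_le _ _).trans (add_le_add b1 b2)
    _ ≤ K * ‖x - D.apply f x‖ := by
        rw [hK]; nlinarith [norm_nonneg (x - D.apply f x)]
    _ ≤ K * (ε / K) := by gcongr
    _ = ε := by field_simp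

/-- normalised real cut-offs -/
theorem exists_cutoff (D : LineCalculus H) (x : H) (ε : ℝ) (hε : 0 < ε) :
    ∃ χ : ℝ →ᵇ ℂ, HasCompactSupport (χ : ℝ → ℂ) ∧ ‖χ‖ ≤ 1 ∧ ‖D.apply χ x - x‖ < ε := by
  obtain ⟨f, hf, hfx⟩ := D.window x ε hε
  obtain ⟨g, hg1, -, hgc, hg⟩ := exists_continuous_one_zero_of_isCompact hf.isCompact
    isClosed_empty (Set.disjoint_empty _)
  have hc : Continuous fun u => ((g u : ℝ) : ℂ) := Complex.continuous_ofReal.comp g.continuous
  have hs : HasCompactSupport fun u => ((g u : ℝ) : ℂ) :=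
    hgc.comp_left (g := fun r : ℝ => (r : ℂ)) (by simp)
  let χ : ℝ →ᵇ ℂ := ofCompactSupport _ hc hs
  have hχ : ∀ u, χ u = ((g u : ℝ) : ℂ) := fun u => rfl
  refine ⟨χ, hs, ?_, ?_⟩
  · rw [BoundedContinuousFunction.norm_le zero_le_one]
    intro u
    rw [hχ, Complex.norm_real, Real.norm_eq_abs, abs_le]
    have := hg u
    constructor <;> linarith [this.1, this.2]
  · have h1 : (χ - 1) * f = 0 := by
      ext u
      by_cases hu : u ∈ tsupport (f : ℝ → ℂ)
      · have := hg1 hu
        simp only [Pi.one_apply] at this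
        simp [hχ, this]
      · have : f u = 0 := image_eq_zero_of_notMem_tsupport hu
        simp [this]
    have h2 : D.apply χ x - x = D.apply (χ - 1) (x - D.apply f x) := by
      rw [map_sub (D.apply (χ - 1)), ← calc_mul_apply, h1, map_zero, map_sub, map_one]
      simp
    have h3 : ‖χ - 1‖ ≤ 1 := by
      rw [BoundedContinuousFunction.norm_le zero_le_one]
      intro u
      have : (χ - 1) u = ((g u - 1 : ℝ) : ℂ) := by simp [hχ]
      rw [this, Complex.norm_real, Real.norm_eq_abs, abs_le]
      have := hg u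
      constructor <;> linarith [this.1, this.2]
    rw [h2]
    refine (calc_apply_norm_le D _ _).trans_lt ?_
    rw [norm_sub_rev] at hfx
    nlinarith [norm_nonneg (x - D.apply f x)]

/-- a vector killed by `g·χ` for all compactly supported `χ` is killed by `g`. -/
theorem calc_eq_zero_of_cutoff (D : LineCalculus H) (x : H) (g : ℝ →ᵇ ℂ)
    (h : ∀ χ : ℝ →ᵇ ℂ, HasCompactSupport (χ : ℝ → ℂ) → D.apply (g * χ) x = 0) :
    D.apply g x = 0 := by
  refine eq_of_forall_dist_le fun ε hε => ?_
  obtain ⟨f, hf, hfx⟩ := D.window x (ε / (‖g‖ + 1)) (by positivity)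
  have h1 := h f hf
  rw [calc_mul_apply] at h1
  have h2 : D.apply g x = D.apply g (x - D.apply f x) := by rw [map_sub, h1, sub_zero]
  rw [dist_zero_right, h2]
  rw [norm_sub_rev] at hfx
  calc _ ≤ ‖g‖ * ‖x - D.apply f x‖ := calc_apply_norm_le D _ _
    _ ≤ (‖g‖ + 1) * (ε / (‖g‖ + 1)) := by gcongr; linarith
    _ = ε := by field_simp

theorem supportedIn_add {D : LineCalculus H} {K : Set ℝ} {x y : H} (hx : D.SupportedIn K x)
    (hy : D.SupportedIn K y) : D.SupportedIn K (x + y) := fun f hf => by
  rw [map_add, hx f hf, hy f hf, add_zero]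

theorem supportedIn_smul {D : LineCalculus H} {K : Set ℝ} {x : H} (c : ℂ) (hx : D.SupportedIn K x) :
    D.SupportedIn K (c • x) := fun f hf => by
  rw [map_smul, hx f hf, smul_zero]

theorem supportedIn_zero (D : LineCalculus H) (K : Set ℝ) : D.SupportedIn K 0 := fun f _ => by
  rw [map_zero]

theorem supportedIn_wave {D : LineCalculus H} {K : Set ℝ} {x : H} (t : ℝ) (hx : D.SupportedIn K x) :
    D.SupportedIn K (D.wave t x) := fun f hf => by
  rw [wave_comm, hx f hf, map_zero]

theorem supportedIn_calc (D : LineCalculus H) {K : Set ℝ} (F : ℝ →ᵇ ℂ) (hF : ∀ u, u ∉ K → F u = 0)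
    (x : H) : D.SupportedIn K (D.apply F x) := fun f hf => by
  have : f * F = 0 := by
    ext u
    by_cases hu : u ∈ K
    · simp [hf u hu]
    · simp [hF u hu]
  rw [← calc_mul_apply, this, map_zero]; rfl

theorem calc_eq_self {D : LineCalculus H} {K : Set ℝ} {x : H} (hx : D.SupportedIn K x)
    (F : ℝ →ᵇ ℂ) (hF : ∀ u ∈ K, F u = 1) : D.apply F x = x := by
  have := hx (F - 1) (fun u hu => by simp [hF u hu])
  rw [map_sub, map_one] at this
  simpa [sub_eq_zero] using this

theorem calc_congr {D : LineCalculus H} {K : Set ℝ} {x : H} (hx : D.SupportedIn K x)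
    (F F' : ℝ →ᵇ ℂ) (hF : ∀ u ∈ K, F u = F' u) : D.apply F x = D.apply F' x := by
  have := hx (F - F') (fun u hu => by simp [hF u hu])
  rw [map_sub] at this
  simpa [sub_eq_zero] using this

/-- A bump with integrable Fourier transform. -/
theorem exists_bump : ∃ (G : ℝ → ℂ), Integrable G ∧ ∀ s δ : ℝ, 0 < δ →
    ∃ (F : ℝ →ᵇ ℂ) (G' : ℝ → ℂ) (c : ℝ), ‖F‖ ≤ 1 ∧ (∀ u ∈ Set.Icc (s - δ) (s + δ), F u = 1) ∧
      (∀ u, u ∉ Set.Icc (s - 2 * δ) (s + 2 * δ) → F u = 0) ∧ Integrable G' ∧
      (∀ t, ‖G' t‖ = ‖G t‖) ∧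
      ∀ u : ℝ, F u = ∫ t, G' t * Complex.exp (Complex.I * ((c * t * u : ℝ) : ℂ)) := by
  let b : ContDiffBump (0 : ℝ) := ⟨1, 2, one_pos, one_lt_two⟩
  have hsm : ContDiff ℝ ((⊤ : ℕ∞) : WithTop ℕ∞) fun u => ((b u : ℝ) : ℂ) :=
    Complex.ofRealCLM.contDiff.comp b.contDiff
  have hs : HasCompactSupport fun u => ((b u : ℝ) : ℂ) :=
    b.hasCompactSupport.comp_left (g := fun r : ℝ => (r : ℂ)) (by simp)
  let φ : SchwartzMap ℝ ℂ := hs.toSchwartzMap hsm
  have hφ : ∀ u, φ u = ((b u : ℝ) : ℂ) := fun u => rfl
  let G : ℝ → ℂ := FourierTransform.fourier (φ : ℝ → ℂ)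
  have hG : Integrable G := (FourierTransform.fourier φ : SchwartzMap ℝ ℂ).integrable
  have hinv : ∀ y : ℝ, ((b y : ℝ) : ℂ) =
      ∫ t, Complex.exp (((2 * Real.pi * (t * y) : ℝ) : ℂ) * Complex.I) * G t := by
    intro y
    have := congrFun (φ.continuous.fourierInv_fourier_eq φ.integrable hG) y
    rw [Real.fourierInv_eq'] at this
    rw [← hφ, ← this]
    congr 1; ext t
    simp [G, mul_comm]
  refine ⟨G, hG, fun s δ hδ => ?_⟩
  have hcont : Continuous fun u : ℝ => ((b ((u - s) / δ) : ℝ) : ℂ) := by
    have := hsm.continuous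
    exact this.comp (by fun_prop)
  let F : ℝ →ᵇ ℂ := BoundedContinuousFunction.ofNormedAddCommGroup _ hcont 1 (fun u => by
    rw [Complex.norm_real, Real.norm_eq_abs, abs_of_nonneg b.nonneg]; exact b.le_one)
  have hF : ∀ u, F u = ((b ((u - s) / δ) : ℝ) : ℂ) := fun u => rfl
  refine ⟨F, fun t => Complex.exp (((-(2 * Real.pi * (t * (s / δ))) : ℝ) : ℂ) * Complex.I) * G t,
    2 * Real.pi / δ, ?_, ?_, ?_, ?_, ?_, ?_⟩
  · exact BoundedContinuousFunction.norm_ofNormedAddCommGroup_le _ zero_le_one _
  · intro u hu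
    rw [hF, b.one_of_mem_closedBall]
    · simp
    · simp only [Metric.mem_closedBall, dist_zero_right, Real.norm_eq_abs, b]
      rw [abs_div, abs_of_pos hδ, div_le_one hδ, abs_le]
      constructor <;> linarith [hu.1, hu.2]
  · intro u hu
    rw [hF, b.zero_of_le_dist]
    · simp
    · simp only [dist_zero_right, Real.norm_eq_abs, b]
      rw [abs_div, abs_of_pos hδ, le_div_iff₀ hδ]
      simp only [Set.mem_Icc, not_and_or, not_le] at hu
      rcases hu with hu | hu
      · rw [abs_of_nonpos (by linarith)]; linarith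
      · rw [abs_of_nonneg (by linarith)]; linarith
  · refine hG.bdd_mul (c := 1) (Continuous.aestronglyMeasurable (by fun_prop)) ?_
    exact Eventually.of_forall fun t => by rw [Complex.norm_exp_ofReal_mul_I]
  · intro t
    rw [norm_mul, Complex.norm_exp_ofReal_mul_I, one_mul]
  · intro u
    rw [hF, hinv]
    congr 1; ext t
    beta_reduce
    rw [mul_right_comm (Complex.exp _) (G t), ← Complex.exp_add]
    congr 2
    push_cast
    field_simp
    ring

end Crest.Agent.H3Mod
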