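import Crest.Agent.H3Mod.Mean

set_option autoImplicit false
set_option linter.unusedSectionVars false

namespace Crest.Agent.H3Mod

open Crest.OpAlg MeasureTheory Filter Topology BoundedContinuousFunction
open scoped InnerProductSpace

variable {H : Type*} [NormedAddCommGroup H] [InnerProductSpace ℂ H] [CompleteSpace H]

theorem re_inner_self (x : H) : (⟪x, x⟫_ℂ).re = ‖x‖ ^ 2 := by
  have := inner_self_eq_norm_sq (𝕜 := ℂ) x
  simpa using this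

theorem inner_self_real (x : H) : ⟪x, x⟫_ℂ = ((‖x‖ ^ 2 : ℝ) : ℂ) := by
  rw [inner_self_eq_norm_sq_to_K]; push_cast; rfl

theorem par_law (x y : H) : ‖x + y‖ ^ 2 + ‖x - y‖ ^ 2 = 2 * (‖x‖ ^ 2 + ‖y‖ ^ 2) := by
  have := parallelogram_law_with_norm ℂ x y
  nlinarith

theorem norm_add_sq' (x y : H) : ‖x + y‖ ^ 2 = ‖x‖ ^ 2 + 2 * (⟪x, y⟫_ℂ).re + ‖y‖ ^ 2 := by
  have := norm_add_sq (𝕜 := ℂ) x y
  simpa using this

theorem norm_add_sq_le (x y : H) : ‖x + y‖ ^ 2 ≤ 2 * ‖x‖ ^ 2 + 2 * ‖y‖ ^ 2 := by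
  have := par_law x y
  nlinarith [sq_nonneg ‖x - y‖]

theorem vac_star_mul (ξ : H) (a : H →L[ℂ] H) :
    ⟪ξ, (star a * a) ξ⟫_ℂ = ((‖a ξ‖ ^ 2 : ℝ) : ℂ) := by
  change ⟪ξ, star a (a ξ)⟫_ℂ = _
  rw [inner_star_right, inner_self_real]

theorem vac_mul_star (ξ : H) (a : H →L[ℂ] H) :
    ⟪ξ, (a * star a) ξ⟫_ℂ = ((‖star a ξ‖ ^ 2 : ℝ) : ℂ) := by
  change ⟪ξ, a (star a ξ)⟫_ℂ = _
  rw [← inner_star_left, inner_self_real]

/-- the potential used in the greedy construction -/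
noncomputable def pot (ξ : H) (T : H →L[ℂ] H) (μ ν : ℝ) (V : H →L[ℂ] H) : ℝ :=
  ‖T (V ξ)‖ ^ 2 - μ * ‖star V (V ξ)‖ ^ 2 - ν * ‖V ξ‖ ^ 2

theorem pot_sum (ξ : H) (T : H →L[ℂ] H) {μ ν : ℝ} (hμ : 0 ≤ μ) (V A : H →L[ℂ] H) :
    2 * (‖T (V ξ)‖ ^ 2 + ‖T (A ξ)‖ ^ 2 - μ * (‖star V (V ξ)‖ ^ 2 +
      2 * (⟪star V (V ξ), star A (A ξ)⟫_ℂ).re + ‖star A (A ξ)‖ ^ 2 +
      2 * ‖star V (A ξ)‖ ^ 2 + 2 * ‖star A (V ξ)‖ ^ 2) - ν * (‖V ξ‖ ^ 2 + ‖A ξ‖ ^ 2)) ≤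
    pot ξ T μ ν (V + A) + pot ξ T μ ν (V - A) := by
  unfold pot
  have e1 : T ((V + A) ξ) = T (V ξ) + T (A ξ) := by simp
  have e2 : T ((V - A) ξ) = T (V ξ) - T (A ξ) := by simp
  have e3 : (V + A) ξ = V ξ + A ξ := by simp
  have e4 : (V - A) ξ = V ξ - A ξ := by simp
  have e5 : star (V + A) ((V + A) ξ) =
      (star V (V ξ) + star A (A ξ)) + (star V (A ξ) + star A (V ξ)) := by
    simp only [star_add, _root_.add_apply, map_add]; abel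
  have e6 : star (V - A) ((V - A) ξ) =
      (star V (V ξ) + star A (A ξ)) - (star V (A ξ) + star A (V ξ)) := by
    simp only [star_sub, _root_.sub_apply, map_sub]; abel
  rw [e1, e2, e5, e6, e3, e4]
  have p1 := par_law (T (V ξ)) (T (A ξ))
  have p2 := par_law (V ξ) (A ξ)
  have p3 := par_law (star V (V ξ) + star A (A ξ)) (star V (A ξ) + star A (V ξ))
  have p4 := norm_add_sq' (star V (V ξ)) (star A (A ξ))
  have p5 := norm_add_sq_le (star V (A ξ)) (star A (V ξ))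
  have p6 := mul_le_mul_of_nonneg_left p5 hμ
  have p2' : ν * ‖V ξ + A ξ‖ ^ 2 + ν * ‖V ξ - A ξ‖ ^ 2 = ν * (2 * (‖V ξ‖ ^ 2 + ‖A ξ‖ ^ 2)) := by
    rw [← p2]; ring
  have p3' : μ * ‖star V (V ξ) + star A (A ξ) + (star V (A ξ) + star A (V ξ))‖ ^ 2 +
      μ * ‖star V (V ξ) + star A (A ξ) - (star V (A ξ) + star A (V ξ))‖ ^ 2 =
      μ * (2 * ((‖star V (V ξ)‖ ^ 2 + 2 * (⟪star V (V ξ), star A (A ξ)⟫_ℂ).re +
        ‖star A (A ξ)‖ ^ 2) + ‖star V (A ξ) + star A (V ξ)‖ ^ 2)) := by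
    rw [← p4, ← p3]; ring
  nlinarith

theorem greedy_step (S : ModularDatum H) (herg : S.Ergodic) (ω : Ultrafilter ℕ)
    (hω : (ω : Filter ℕ) ≤ atTop) (T : H →L[ℂ] H) {a : H →L[ℂ] H} (ha : a ∈ S.M)
    (K : Set ℝ) (haK : S.D.SupportedIn K (a S.vac)) {E α c : ℝ} (hE0 : 0 ≤ E)
    (hE : ∀ b ∈ S.M, S.D.SupportedIn K (b S.vac) → ‖star b S.vac‖ ^ 2 ≤ E * ‖b S.vac‖ ^ 2)
    (hα : ‖a S.vac‖ ^ 2 ≤ α)
    (hc : ∀ᶠ k in (ω : Filter ℕ), c ≤ wm (fun t => ‖T (S.D.wave t (a S.vac))‖ ^ 2) k)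
    {μ ν η : ℝ} (hμ : 0 ≤ μ) (hν : 0 ≤ ν) (hη : 0 < η)
    {V : H →L[ℂ] H} (hV : V ∈ S.M) (hVK : S.D.SupportedIn K (V S.vac)) :
    ∃ V' ∈ S.M, S.D.SupportedIn K (V' S.vac) ∧
      pot S.vac T μ (ν + μ * ((2 + 4 * E) * α)) V + c - η - μ * ‖star a (a S.vac)‖ ^ 2 - ν * α ≤
        pot S.vac T μ ν V' := by
  set ξ := S.vac with hξ
  let f₀ : ℝ → ℝ := fun t => ‖T (S.D.wave t (a ξ))‖ ^ 2
  let f₁ : ℝ → ℝ := fun t => (⟪star V (V ξ), S.flow t (star a * a) ξ⟫_ℂ).re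
  let f₂ : ℝ → ℝ := fun t => (⟪a ξ, S.flow (-t) (V * star V) (a ξ)⟫_ℂ).re
  let f₃ : ℝ → ℝ := fun t => (⟪V ξ, S.flow t (a * star a) (V ξ)⟫_ℂ).re
  have c₀ : Continuous f₀ := (T.continuous.comp (continuous_wave S.D _)).norm.pow 2
  have c₁ : Continuous f₁ := Complex.continuous_re.comp (continuous_inner_flow S _ _ _)
  have c₂ : Continuous f₂ :=
    (Complex.continuous_re.comp (continuous_inner_flow S (V * star V) (a ξ) (a ξ))).comp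
      continuous_neg
  have c₃ : Continuous f₃ := Complex.continuous_re.comp (continuous_inner_flow S _ _ _)
  have t₁ : Tendsto (wm f₁) ω (𝓝 (‖a ξ‖ ^ 2 * ‖V ξ‖ ^ 2)) := by
    have := ergodic_mean_re S herg ω hω (mul_mem (star_mem ha) ha) (star V (V ξ)) ξ
    rw [vac_star_mul, inner_star_left, inner_self_real, ← Complex.ofReal_mul,
      Complex.ofReal_re] at this
    exact this
  have t₂ : Tendsto (wm f₂) ω (𝓝 (‖star V ξ‖ ^ 2 * ‖a ξ‖ ^ 2)) := by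
    have := ergodic_mean_re_neg S herg ω hω (mul_mem hV (star_mem hV)) (a ξ) (a ξ)
    rw [vac_mul_star, inner_self_real, ← Complex.ofReal_mul, Complex.ofReal_re] at this
    exact this
  have t₃ : Tendsto (wm f₃) ω (𝓝 (‖star a ξ‖ ^ 2 * ‖V ξ‖ ^ 2)) := by
    have := ergodic_mean_re S herg ω hω (mul_mem ha (star_mem ha)) (V ξ) (V ξ)
    rw [vac_mul_star, inner_self_real, ← Complex.ofReal_mul, Complex.ofReal_re] at this
    exact this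
  have hm : ‖a ξ‖ ^ 2 * ‖V ξ‖ ^ 2 + ‖star V ξ‖ ^ 2 * ‖a ξ‖ ^ 2 + ‖star a ξ‖ ^ 2 * ‖V ξ‖ ^ 2 ≤
      (1 + 2 * E) * α * ‖V ξ‖ ^ 2 := by
    have h1 := hE V hV hVK
    have h2 := hE a ha haK
    have hv : 0 ≤ ‖V ξ‖ ^ 2 := sq_nonneg _
    have hα0 : 0 ≤ ‖a ξ‖ ^ 2 := sq_nonneg _
    have b1 : ‖a ξ‖ ^ 2 * ‖V ξ‖ ^ 2 ≤ α * ‖V ξ‖ ^ 2 := by gcongr
    have b2 : ‖star V ξ‖ ^ 2 * ‖a ξ‖ ^ 2 ≤ (E * ‖V ξ‖ ^ 2) * α := by gcongr
    have b3 : ‖star a ξ‖ ^ 2 * ‖V ξ‖ ^ 2 ≤ (E * α) * ‖V ξ‖ ^ 2 := by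
      gcongr
      exact h2.trans (by gcongr)
    nlinarith
  let p : ℝ → ℝ := fun t => f₀ t - (2 * μ) * (f₁ t + f₂ t + f₃ t)
  have cp : Continuous p := c₀.sub (continuous_const.mul ((c₁.add c₂).add c₃))
  have hwp : ∀ k, wm p k = wm f₀ k - (2 * μ) * (wm f₁ k + wm f₂ k + wm f₃ k) := by
    intro k
    have c₁₂ : Continuous fun t => f₁ t + f₂ t := c₁.add c₂
    have c₁₂₃ : Continuous fun t => (2 * μ) * (f₁ t + f₂ t + f₃ t) :=
      continuous_const.mul (c₁₂.add c₃)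
    rw [← wm_add c₁ c₂, ← wm_add c₁₂ c₃, ← wm_const_mul, ← wm_sub c₀ c₁₂₃]
  have t₄ := ((t₁.add t₂).add t₃).const_mul (2 * μ)
  have hev : ∀ᶠ k in (ω : Filter ℕ), c - μ * ((2 + 4 * E) * α) * ‖V ξ‖ ^ 2 - η < wm p k := by
    filter_upwards [hc, t₄.eventually (gt_mem_nhds (lt_add_of_pos_right _ hη))] with k h1 h2
    rw [hwp]
    have := mul_le_mul_of_nonneg_left hm (by positivity : 0 ≤ 2 * μ)
    nlinarith
  obtain ⟨t, ht⟩ := exists_gt_of_eventually hω cp hev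
  set A := S.flow t a with hA
  have hAM : A ∈ S.M := flow_mem' S t ha
  have hAξ : A ξ = S.D.wave t (a ξ) := flow_vac S t a
  have hAK : S.D.SupportedIn K (A ξ) := by rw [hAξ]; exact supportedIn_wave t haK
  have q₀ : ‖T (A ξ)‖ ^ 2 = f₀ t := by rw [hAξ]
  have hAA : star A (A ξ) = S.flow t (star a * a) ξ := by
    rw [flow_mul, ← star_flow]; rfl
  have q₁ : (⟪star V (V ξ), star A (A ξ)⟫_ℂ).re = f₁ t := by rw [hAA]
  have q₁' : ‖star A (A ξ)‖ = ‖star a (a ξ)‖ := by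
    rw [hAA, flow_vac, norm_wave_apply]; rfl
  have q₂ : ‖star V (A ξ)‖ ^ 2 = f₂ t := by
    rw [← re_inner_self, inner_star_left, hAξ, inner_wave_left]
    simp only [f₂, flow_apply, neg_neg]
    rfl
  have q₃ : ‖star A (V ξ)‖ ^ 2 = f₃ t := by
    rw [← re_inner_self, inner_star_left]
    simp only [f₃, flow_mul, ← star_flow]
    rfl
  have q₄ : ‖A ξ‖ ^ 2 ≤ α := by rw [hAξ, norm_wave_apply]; exact hα
  have hsum := pot_sum ξ T (ν := ν) hμ V A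
  rw [q₀, q₁, q₁', q₂, q₃] at hsum
  have hνα : ν * ‖A ξ‖ ^ 2 ≤ ν * α := by gcongr
  have key : 2 * (pot ξ T μ (ν + μ * ((2 + 4 * E) * α)) V + c - η -
      μ * ‖star a (a ξ)‖ ^ 2 - ν * α) ≤ pot ξ T μ ν (V + A) + pot ξ T μ ν (V - A) := by
    refine le_trans ?_ hsum
    unfold pot
    simp only [p] at ht
    nlinarith
  by_cases hcase : pot ξ T μ ν (V - A) ≤ pot ξ T μ ν (V + A)
  · refine ⟨V + A, add_mem hV hAM, ?_, by linarith⟩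
    exact supportedIn_add hVK hAK
  · refine ⟨V - A, sub_mem hV hAM, ?_, by linarith⟩
    have : (V - A) ξ = V ξ + (-1 : ℂ) • A ξ := by simp [sub_eq_add_neg]
    rw [this]
    exact supportedIn_add hVK (supportedIn_smul _ hAK)

theorem greedy_iter (S : ModularDatum H) (herg : S.Ergodic) (ω : Ultrafilter ℕ)
    (hω : (ω : Filter ℕ) ≤ atTop) (T : H →L[ℂ] H) {a : H →L[ℂ] H} (ha : a ∈ S.M)
    (K : Set ℝ) (haK : S.D.SupportedIn K (a S.vac)) {E α c : ℝ} (hE0 : 0 ≤ E)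
    (hE : ∀ b ∈ S.M, S.D.SupportedIn K (b S.vac) → ‖star b S.vac‖ ^ 2 ≤ E * ‖b S.vac‖ ^ 2)
    (hα : ‖a S.vac‖ ^ 2 ≤ α)
    (hc : ∀ᶠ k in (ω : Filter ℕ), c ≤ wm (fun t => ‖T (S.D.wave t (a S.vac))‖ ^ 2) k)
    {μ η : ℝ} (hμ : 0 ≤ μ) (hη : 0 < η) (N : ℕ) (k : ℕ) (hk : k ≤ N) :
    ∃ V ∈ S.M, S.D.SupportedIn K (V S.vac) ∧
      k * (c - η - μ * ‖star a (a S.vac)‖ ^ 2 - μ * ((2 + 4 * E) * α) * N * α) ≤
        pot S.vac T μ (μ * ((2 + 4 * E) * α) * (N - k)) V := by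
  have hα0 : 0 ≤ α := (sq_nonneg _).trans hα
  induction k with
  | zero =>
    refine ⟨0, zero_mem _, by simpa using supportedIn_zero S.D K, ?_⟩
    simp [pot]
  | succ k ih =>
    obtain ⟨V, hV, hVK, hp⟩ := ih (by omega)
    have hk' : ((k + 1 : ℕ) : ℝ) ≤ N := by exact_mod_cast hk
    have hL : 0 ≤ μ * ((2 + 4 * E) * α) := by positivity
    have hν : 0 ≤ μ * ((2 + 4 * E) * α) * (N - (k + 1 : ℕ)) := mul_nonneg hL (by linarith)
    obtain ⟨V', hV', hV'K, hp'⟩ := greedy_step S herg ω hω T ha K haK hE0 hE hα hc hμ hν hη hV hVK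
    refine ⟨V', hV', hV'K, le_trans ?_ hp'⟩
    have e : μ * ((2 + 4 * E) * α) * (N - (k + 1 : ℕ)) + μ * ((2 + 4 * E) * α) =
        μ * ((2 + 4 * E) * α) * (N - k) := by push_cast; ring
    rw [e]
    have : μ * ((2 + 4 * E) * α) * (N - (k + 1 : ℕ)) * α ≤ μ * ((2 + 4 * E) * α) * N * α := by
      gcongr
      have : (0 : ℝ) ≤ (k + 1 : ℕ) := Nat.cast_nonneg _
      linarith
    push_cast at this ⊢
    nlinarith

theorem greedy_final (S : ModularDatum H) (herg : S.Ergodic) (ω : Ultrafilter ℕ)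
    (hω : (ω : Filter ℕ) ≤ atTop) (T : H →L[ℂ] H) {a : H →L[ℂ] H} (ha : a ∈ S.M)
    (K : Set ℝ) (haK : S.D.SupportedIn K (a S.vac)) {E α c l : ℝ} (hE0 : 0 ≤ E)
    (hE : ∀ b ∈ S.M, S.D.SupportedIn K (b S.vac) → ‖star b S.vac‖ ^ 2 ≤ E * ‖b S.vac‖ ^ 2)
    (hα : ‖a S.vac‖ ^ 2 ≤ α)
    (hc : ∀ᶠ k in (ω : Filter ℕ), c ≤ wm (fun t => ‖T (S.D.wave t (a S.vac))‖ ^ 2) k)
    (hc0 : 0 < c) (hl : 0 < l) (hlc : l * ((2 + 4 * E) * α * α) ≤ c / 4) :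
    ∃ v ∈ S.M, S.D.SupportedIn K (v S.vac) ∧
      c / 4 ≤ ‖T (v S.vac)‖ ^ 2 - l * ‖star v (v S.vac)‖ ^ 2 := by
  set β := ‖star a (a S.vac)‖ ^ 2 with hβ
  have hβ0 : 0 ≤ β := sq_nonneg _
  obtain ⟨N, hN⟩ := exists_nat_gt (4 * l * β / c)
  have hN0 : (0 : ℝ) < N := lt_of_le_of_lt (by positivity) hN
  obtain ⟨V, hV, hVK, hp⟩ := greedy_iter S herg ω hω T ha K haK hE0 hE hα hc
    (μ := l / N) (η := c / 4) (by positivity) (by positivity) N N le_rfl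
  rw [← hβ] at hp
  have h1 : l / N * β ≤ c / 4 := by
    rw [div_lt_iff₀ hc0] at hN
    rw [div_mul_eq_mul_div, div_le_iff₀ hN0]
    nlinarith
  have h2 : l / N * ((2 + 4 * E) * α) * N * α = l * ((2 + 4 * E) * α * α) := by
    field_simp
  rw [h2] at hp
  have h3 : N * (c / 4) ≤ ‖T (V S.vac)‖ ^ 2 - l / N * ‖star V (V S.vac)‖ ^ 2 := by
    simp only [pot, sub_self, mul_zero, zero_mul, sub_zero] at hp
    refine le_trans ?_ hp
    gcongr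
    linarith
  set r : ℝ := (Real.sqrt N)⁻¹ with hr
  have hr2 : r ^ 2 = (N : ℝ)⁻¹ := by rw [hr, inv_pow, Real.sq_sqrt hN0.le]
  have hr0 : 0 ≤ r := by positivity
  refine ⟨(r : ℂ) • V, smul_mem' _ hV, supportedIn_smul _ hVK, ?_⟩
  have e1 : ‖T (((r : ℂ) • V) S.vac)‖ ^ 2 = (N : ℝ)⁻¹ * ‖T (V S.vac)‖ ^ 2 := by
    rw [_root_.smul_apply, map_smul, norm_smul, Complex.norm_real, Real.norm_eq_abs,
      abs_of_nonneg hr0, mul_pow, hr2]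
  have e2 : ‖star ((r : ℂ) • V) (((r : ℂ) • V) S.vac)‖ ^ 2 =
      (N : ℝ)⁻¹ * (N : ℝ)⁻¹ * ‖star V (V S.vac)‖ ^ 2 := by
    rw [star_smul, _root_.smul_apply, _root_.smul_apply, map_smul, norm_smul, norm_smul,
      norm_star, Complex.norm_real, Real.norm_eq_abs, abs_of_nonneg hr0, mul_pow, mul_pow, hr2,
      mul_assoc]
  rw [e1, e2]
  have : c / 4 = (N : ℝ)⁻¹ * (N * (c / 4)) := by field_simp
  rw [this]
  calc _ ≤ (N : ℝ)⁻¹ * (‖T (V S.vac)‖ ^ 2 - l / N * ‖star V (V S.vac)‖ ^ 2) := by gcongr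
    _ = _ := by field_simp

theorem exists_truncation (M : VonNeumannAlgebra H) {v : H →L[ℂ] H} (hv : v ∈ M) {θ : ℝ}
    (hθ : 0 < θ) : ∃ v' ∈ M, ‖v'‖ ≤ (2 * θ)⁻¹ ∧ ∀ ξ, ‖v' ξ - v ξ‖ ≤ θ * ‖star v (v ξ)‖ := by
  set κ : ℝ := 2 * θ ^ 2 with hκ
  have hκ0 : 0 < κ := by positivity
  set P : H →L[ℂ] H := 1 + (κ : ℂ) • (star v * v) with hP
  have hPM : P ∈ M := add_mem (one_mem _) (smul_mem' _ (mul_mem (star_mem hv) hv))
  have hPu : IsUnit P := by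
    have h1 : (0 : H →L[ℂ] H) ≤ (κ : ℂ) • (star v * v) := by
      have : (κ : ℂ) • (star v * v) = star ((Real.sqrt κ : ℂ) • v) * ((Real.sqrt κ : ℂ) • v) := by
        rw [star_smul, smul_mul_smul_comm, Complex.star_def, Complex.conj_ofReal,
          ← Complex.ofReal_mul, Real.mul_self_sqrt hκ0.le]
      rw [this]
      exact star_mul_self_nonneg _
    exact (isStrictlyPositive_one.add_nonneg h1).isUnit
  obtain ⟨u, hu⟩ := hPu
  set R : H →L[ℂ] H := ↑u⁻¹ with hR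
  have hPR : P * R = 1 := by rw [← hu, hR]; exact u.mul_inv
  have hRP : R * P = 1 := by rw [← hu, hR]; exact u.inv_mul
  have hRM : R ∈ M := by
    refine mem_of_comm _ _ fun z hz => ?_
    have h1 := (VonNeumannAlgebra.mem_commutant_iff.1 hz) P hPM
    calc z * R = (R * P) * z * R := by rw [hRP, one_mul]
      _ = R * (P * z) * R := by simp only [mul_assoc]
      _ = R * (z * P) * R := by rw [h1]
      _ = R * z * (P * R) := by simp only [mul_assoc]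
      _ = R * z := by rw [hPR, mul_one]
  have hb : ∀ η, ‖v (R η)‖ ≤ (2 * θ)⁻¹ * ‖η‖ := by
    intro η
    have h1 : η = R η + (κ : ℂ) • star v (v (R η)) := by
      have : (P * R) η = η := by rw [hPR]; rfl
      rw [← this]
      simp only [mul_apply_eq_comp] at this ⊢
      conv_rhs => rw [this]
      rfl
    have h2 := norm_add_sq' (R η) ((κ : ℂ) • star v (v (R η)))
    rw [← h1, inner_smul_right, inner_star_right, inner_self_real, ← Complex.ofReal_mul,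
      Complex.ofReal_re] at h2
    have h3 : (2 * θ * ‖v (R η)‖) ^ 2 ≤ ‖η‖ ^ 2 := by
      rw [h2, hκ]
      nlinarith [sq_nonneg ‖R η‖, sq_nonneg ‖((2 * θ ^ 2 : ℝ) : ℂ) • star v (v (R η))‖]
    have h4 := (abs_le_of_sq_le_sq' h3 (norm_nonneg _)).2
    rw [inv_mul_eq_div, le_div_iff₀ (by positivity)]
    linarith
  refine ⟨v * R, mul_mem hv hRM, ContinuousLinearMap.opNorm_le_bound _ (by positivity) hb,
    fun ξ => ?_⟩
  have h5 : ξ = R ξ + (κ : ℂ) • R (star v (v ξ)) := by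
    have : (R * P) ξ = ξ := by rw [hRP]; rfl
    conv_lhs => rw [← this]
    rw [← map_smul, ← map_add]
    rfl
  have h6 : (v * R) ξ - v ξ = -((κ : ℂ) • v (R (star v (v ξ)))) := by
    conv_lhs => rw [h5]
    have : (v * R) (R ξ + (κ : ℂ) • R (star v (v ξ))) = v (R ξ) := by rw [← h5]; rfl
    rw [this, map_add, map_smul]; abel
  rw [h6, norm_neg, norm_smul, Complex.norm_real, Real.norm_eq_abs, abs_of_pos hκ0]
  calc _ ≤ κ * ((2 * θ)⁻¹ * ‖star v (v ξ)‖) := by gcongr; exact hb _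
    _ = _ := by rw [hκ]; field_simp

end Crest.Agent.H3Mod
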