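import Crest.Agent.H3Mod.Greedy

set_option autoImplicit false

namespace Crest.Agent.H3Mod

open Crest.OpAlg MeasureTheory Filter Topology BoundedContinuousFunction
open scoped InnerProductSpace

variable {H : Type*} [NormedAddCommGroup H] [InnerProductSpace ℂ H] [CompleteSpace H]

theorem tendsto_ultraMean (ω : Ultrafilter ℕ) (f : ℝ → ℝ) (C : ℝ) (hC : ∀ t, ‖f t‖ ≤ C) :
    Tendsto (wm f) ω (𝓝 (ultraMean ω f)) := by
  have h : windowMean f = wm f := funext (windowMean_eq f)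
  unfold ultraMean
  rw [h]
  exact tendsto_nhds_limUnder (exists_ultra_tendsto ω _ 0 C fun k => by
    rw [dist_zero_right]; exact norm_wm_le f C hC k)

theorem key (S : ModularDatum H) (herg : S.Ergodic) (ω : Ultrafilter ℕ)
    (hω : (ω : Filter ℕ) ≤ atTop) (T : H →L[ℂ] H) {c : ℝ} (hc : 0 < c) (B : ℝ) :
    ∃ C η : ℝ, 0 < η ∧ ∀ s δ : ℝ, 0 < δ → s + 2 * δ ≤ B → ∀ h : H, ‖h‖ = 1 →
      S.D.SupportedIn (Set.Icc (s - δ) (s + δ)) h →
      c ≤ ultraMean ω (fun t : ℝ => ‖T (S.D.wave t h)‖ ^ 2) →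
      ∃ v ∈ S.M, ‖v‖ ≤ C ∧ η ≤ ‖T (v S.vac)‖ ∧
        S.D.SupportedIn (Set.Icc (s - 4 * δ) (s + 4 * δ)) (v S.vac) := by
  obtain ⟨K, hK0, hK⟩ := exists_smooth S
  set E : ℝ := Real.exp B with hE
  have hE0 : 0 < E := Real.exp_pos B
  set τ : ℝ := ‖T‖ + 1 with hτ
  have hτ0 : 0 < τ := by positivity
  have hT : ∀ x, ‖T x‖ ≤ τ * ‖x‖ := fun x =>
    (T.le_opNorm x).trans (by gcongr; linarith)
  set c' : ℝ := c / 4 with hc'
  have hc'0 : 0 < c' := by positivity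
  set l : ℝ := c' / (4 * ((2 + 4 * E) * 4 * 4)) with hl
  have hl0 : 0 < l := by positivity
  set ρ : ℝ := Real.sqrt (c' / 4) with hρ
  have hρ0 : 0 < ρ := Real.sqrt_pos.2 (by positivity)
  set θ : ℝ := ρ * l / (2 * τ ^ 3) with hθ
  have hθ0 : 0 < θ := by positivity
  refine ⟨K * (2 * θ)⁻¹, ρ / 2, by positivity, fun s δ hδ hB h hh hs hm => ?_⟩
  set ξ := S.vac with hξ
  -- approximation of `h` by a smooth element of the algebra
  set ε : ℝ := min 1 (Real.sqrt (c / 8) / τ) with hε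
  have hε0 : 0 < ε := lt_min one_pos (div_pos (Real.sqrt_pos.2 (by positivity)) hτ0)
  have hε1 : ε ≤ 1 := min_le_left _ _
  have hε2 : (τ * ε) ^ 2 ≤ c / 8 := by
    have h1 : τ * ε ≤ Real.sqrt (c / 8) := by
      have := min_le_right 1 (Real.sqrt (c / 8) / τ)
      rw [← hε, le_div_iff₀ hτ0] at this
      linarith
    calc (τ * ε) ^ 2 ≤ (Real.sqrt (c / 8)) ^ 2 := by gcongr
      _ = c / 8 := Real.sq_sqrt (by positivity)
  obtain ⟨_, ⟨b, rfl⟩, hb⟩ := S.cyclic.exists_dist_lt h hε0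
  obtain ⟨F₁, hF₁, hF₁1, hF₁0, hF₁M⟩ := hK s δ hδ
  obtain ⟨a, ha, -, haξ⟩ := hF₁M b b.2
  have hah : ‖a ξ - h‖ ≤ ε := by
    rw [haξ]
    conv_lhs => rw [← calc_eq_self hs F₁ hF₁1]
    rw [← map_sub]
    refine (calc_apply_norm_le _ _ _).trans ?_
    rw [dist_comm, dist_eq_norm] at hb
    nlinarith [norm_nonneg ((b : H →L[ℂ] H) S.vac - h), norm_nonneg F₁]
  have haK : S.D.SupportedIn (Set.Icc (s - 2 * δ) (s + 2 * δ)) (a ξ) := by
    rw [haξ]; exact supportedIn_calc _ _ hF₁0 _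
  have hα : ‖a ξ‖ ^ 2 ≤ 4 := by
    have : ‖a ξ‖ ≤ 2 := by
      have := norm_add_le (a ξ - h) h
      rw [sub_add_cancel, hh] at this
      linarith
    nlinarith [norm_nonneg (a ξ)]
  have hEb : ∀ b ∈ S.M, S.D.SupportedIn (Set.Icc (s - 2 * δ) (s + 2 * δ)) (b ξ) →
      ‖star b ξ‖ ^ 2 ≤ E * ‖b ξ‖ ^ 2 := by
    intro b hb hbs
    have h1 := norm_star_vac_le S hb hbs
    have h2 : Real.exp ((s + 2 * δ) / 2) ^ 2 ≤ E := by
      rw [← Real.exp_nat_mul, hE]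
      exact Real.exp_le_exp.2 (by push_cast; linarith)
    calc ‖star b ξ‖ ^ 2 ≤ (Real.exp ((s + 2 * δ) / 2) * ‖b ξ‖) ^ 2 := by gcongr
      _ = Real.exp ((s + 2 * δ) / 2) ^ 2 * ‖b ξ‖ ^ 2 := by ring
      _ ≤ _ := by gcongr
  have hcont : ∀ x : H, Continuous fun t : ℝ => ‖T (S.D.wave t x)‖ ^ 2 := fun x =>
    (T.continuous.comp (continuous_wave S.D _)).norm.pow 2
  have hmean : ∀ᶠ k in (ω : Filter ℕ), c' ≤ wm (fun t => ‖T (S.D.wave t (a ξ))‖ ^ 2) k := by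
    have h1 := tendsto_ultraMean ω (fun t : ℝ => ‖T (S.D.wave t h)‖ ^ 2) (τ ^ 2) (fun t => by
      rw [Real.norm_eq_abs, abs_of_nonneg (sq_nonneg _)]
      have := hT (S.D.wave t h)
      rw [norm_wave_apply, hh, mul_one] at this
      gcongr)
    filter_upwards [h1.eventually (lt_mem_nhds (show 3 * c / 4 < _ from by linarith)),
      hω (eventually_ge_atTop 1)] with k hk hk1
    have h2 : ∀ t, ‖T (S.D.wave t h)‖ ^ 2 ≤ 2 * ‖T (S.D.wave t (a ξ))‖ ^ 2 + c / 4 := by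
      intro t
      have e : T (S.D.wave t h) = T (S.D.wave t (a ξ)) + T (S.D.wave t (h - a ξ)) := by
        rw [← map_add, ← map_add]; simp
      have h3 : ‖T (S.D.wave t (h - a ξ))‖ ≤ τ * ε := by
        refine (hT _).trans ?_
        rw [norm_wave_apply, norm_sub_rev]; gcongr
      have h4 : ‖T (S.D.wave t (h - a ξ))‖ ^ 2 ≤ (τ * ε) ^ 2 := by gcongr
      have h5 := norm_add_sq_le (T (S.D.wave t (a ξ))) (T (S.D.wave t (h - a ξ)))
      rw [← e] at h5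
      linarith
    have c2 : Continuous fun t => 2 * ‖T (S.D.wave t (a ξ))‖ ^ 2 := continuous_const.mul (hcont _)
    have h6 := wm_mono (hcont h) (c2.add continuous_const) h2 k
    have h7 := wm_add c2 (continuous_const (y := c / 4)) k
    rw [wm_const_mul, wm_const _ hk1] at h7
    have h8 := h6.trans_eq h7
    linarith
  obtain ⟨v, hv, hvK, hvp⟩ := greedy_final S herg ω hω T ha _ haK hE0.le hEb hα hmean hc'0 hl0
    (le_of_eq (by rw [hl]; field_simp))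
  set q := ‖star v (v ξ)‖ with hq
  have hq0 : 0 ≤ q := norm_nonneg _
  have hvq : ‖v ξ‖ ^ 2 ≤ q := by
    rw [← re_inner_self, ← inner_star_right]
    refine (Complex.re_le_norm _).trans ((norm_inner_le_norm _ _).trans ?_)
    rw [S.norm_vac, one_mul]
  have hTv : ‖T (v ξ)‖ ^ 2 ≤ τ ^ 2 * q := by
    calc _ ≤ (τ * ‖v ξ‖) ^ 2 := by gcongr; exact hT _
      _ = τ ^ 2 * ‖v ξ‖ ^ 2 := by ring
      _ ≤ _ := by gcongr
  have hqb : l * q ≤ τ ^ 2 := by
    rcases hq0.eq_or_lt with h0 | h0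
    · rw [← h0]; simp; positivity
    · have : l * q * q ≤ τ ^ 2 * q := by nlinarith
      exact le_of_mul_le_mul_right this h0
  have hρT : ρ ≤ ‖T (v ξ)‖ := by
    rw [hρ]
    refine Real.sqrt_le_iff.2 ⟨norm_nonneg _, ?_⟩
    nlinarith [mul_nonneg hl0.le (sq_nonneg q)]
  obtain ⟨v', hv', hv'n, hv'ξ⟩ := exists_truncation S.M hv hθ0
  obtain ⟨F₂, hF₂, hF₂1, hF₂0, hF₂M⟩ := hK s (2 * δ) (by positivity)
  obtain ⟨y, hy, hyn, hyξ⟩ := hF₂M v' hv'
  refine ⟨y, hy, hyn.trans (by gcongr), ?_, ?_⟩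
  · have h1 : ‖y ξ - v ξ‖ ≤ θ * q := by
      rw [hyξ]
      conv_lhs => rw [← calc_eq_self hvK F₂ hF₂1]
      rw [← map_sub]
      refine (calc_apply_norm_le _ _ _).trans ?_
      have := hv'ξ ξ
      nlinarith [norm_nonneg (v' ξ - v ξ), norm_nonneg F₂]
    have h2 : ‖T (y ξ) - T (v ξ)‖ ≤ τ * (θ * q) := by
      rw [← map_sub]; exact (hT _).trans (by gcongr)
    have h3 : τ * (θ * q) ≤ ρ / 2 := by
      have : τ * (θ * q) = ρ / (2 * τ ^ 2) * (l * q) := by rw [hθ]; field_simp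
      rw [this]
      calc _ ≤ ρ / (2 * τ ^ 2) * τ ^ 2 := by gcongr
        _ = ρ / 2 := by field_simp
    have h4 := norm_sub_norm_le (T (v ξ)) (T (y ξ))
    rw [norm_sub_rev] at h4
    linarith
  · rw [hyξ]
    refine supportedIn_calc _ _ (fun u hu => hF₂0 u ?_) _
    rwa [show 2 * (2 * δ) = 4 * δ by ring]

end Crest.Agent.H3Mod
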