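import Crest.Agent.H3Mod.Datum

set_option autoImplicit false

namespace Crest.Agent.H3Mod

open Crest.OpAlg MeasureTheory Filter Topology BoundedContinuousFunction
open scoped InnerProductSpace

section wm

variable {E : Type*} [NormedAddCommGroup E] [NormedSpace ℝ E]

/-- window means as interval integrals -/
noncomputable def wm (g : ℝ → E) (k : ℕ) : E := (2 * k : ℝ)⁻¹ • ∫ t in (-(k : ℝ))..k, g t

theorem windowMean_eq (f : ℝ → ℝ) (k : ℕ) : windowMean f k = wm f k := by
  have hk : (-(k : ℝ)) ≤ k := by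
    have : (0 : ℝ) ≤ k := Nat.cast_nonneg k
    linarith
  unfold windowMean wm
  rw [setAverage_eq, Real.volume_real_Icc_of_le hk, integral_Icc_eq_integral_Ioc,
    intervalIntegral.integral_of_le hk]
  congr 2; ring

theorem norm_wm_le (g : ℝ → E) (C : ℝ) (hC : ∀ t, ‖g t‖ ≤ C) (k : ℕ) : ‖wm g k‖ ≤ C := by
  have hC0 : 0 ≤ C := (norm_nonneg _).trans (hC 0)
  unfold wm
  rw [norm_smul]
  have h1 := intervalIntegral.norm_integral_le_of_norm_le_const (a := -(k : ℝ)) (b := k) (f := g)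
    (C := C) (fun t _ => hC t)
  have hk : (0 : ℝ) ≤ k := Nat.cast_nonneg k
  rw [show (k : ℝ) - -(k : ℝ) = 2 * k by ring, abs_of_nonneg (by positivity)] at h1
  rcases hk.eq_or_lt with h0 | h0
  · rw [← h0]; simpa using hC0
  · rw [Real.norm_eq_abs, abs_of_nonneg (by positivity)]
    calc _ ≤ (2 * k : ℝ)⁻¹ * (C * (2 * k)) := by gcongr
      _ = C := by field_simp

theorem wm_add {f g : ℝ → E} (hf : Continuous f) (hg : Continuous g) (k : ℕ) :
    wm (fun t => f t + g t) k = wm f k + wm g k := by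
  unfold wm
  rw [intervalIntegral.integral_add (hf.intervalIntegrable _ _) (hg.intervalIntegrable _ _),
    smul_add]

theorem wm_sub {f g : ℝ → E} (hf : Continuous f) (hg : Continuous g) (k : ℕ) :
    wm (fun t => f t - g t) k = wm f k - wm g k := by
  unfold wm
  rw [intervalIntegral.integral_sub (hf.intervalIntegrable _ _) (hg.intervalIntegrable _ _),
    smul_sub]

theorem wm_neg_arg (g : ℝ → E) (k : ℕ) : wm (fun t => g (-t)) k = wm g k := by
  unfold wm
  rw [intervalIntegral.integral_comp_neg, neg_neg]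

theorem wm_const_mul (c : ℝ) (g : ℝ → ℝ) (k : ℕ) : wm (fun t => c * g t) k = c * wm g k := by
  unfold wm
  rw [intervalIntegral.integral_const_mul, smul_eq_mul, smul_eq_mul]; ring

theorem wm_const [CompleteSpace E] (c : E) {k : ℕ} (hk : 1 ≤ k) : wm (fun _ => c) k = c := by
  unfold wm
  have : (0 : ℝ) < k := by exact_mod_cast hk
  rw [intervalIntegral.integral_const, smul_smul]
  have : (2 * k : ℝ)⁻¹ * (k - -k) = 1 := by field_simp; ring
  rw [this, one_smul]

theorem wm_mono {f g : ℝ → ℝ} (hf : Continuous f) (hg : Continuous g) (h : ∀ t, f t ≤ g t)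
    (k : ℕ) : wm f k ≤ wm g k := by
  unfold wm
  have hk : (0 : ℝ) ≤ k := Nat.cast_nonneg k
  simp only [smul_eq_mul]
  gcongr
  exact intervalIntegral.integral_mono_on (by linarith) (hf.intervalIntegrable _ _)
    (hg.intervalIntegrable _ _) fun t _ => h t

theorem wm_re {g : ℝ → ℂ} (hg : Continuous g) (k : ℕ) :
    wm (fun t => (g t).re) k = (wm g k).re := by
  unfold wm
  have := (Complex.reCLM).intervalIntegral_comp_comm (hg.intervalIntegrable (μ := volume)
    (-(k : ℝ)) k)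
  simp only [Complex.reCLM_apply] at this
  rw [this]; simp

theorem wm_translate {g : ℝ → E} (hg : Continuous g) (C : ℝ) (hC : ∀ t, ‖g t‖ ≤ C) (s : ℝ) :
    Tendsto (fun k => wm (fun t => g (s + t)) k - wm g k) atTop (𝓝 0) := by
  have hC0 : 0 ≤ C := (norm_nonneg _).trans (hC 0)
  rw [tendsto_zero_iff_norm_tendsto_zero]
  have hlim : Tendsto (fun k : ℕ => (2 * k : ℝ)⁻¹ * (C * |s| + C * |s|)) atTop (𝓝 0) := by
    have : Tendsto (fun k : ℕ => (2 * k : ℝ)⁻¹) atTop (𝓝 0) :=
      tendsto_inv_atTop_zero.comp (tendsto_natCast_atTop_atTop.const_mul_atTop two_pos)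
    simpa using this.mul_const (C * |s| + C * |s|)
  refine squeeze_zero (fun _ => norm_nonneg _) (fun k => ?_) hlim
  unfold wm
  rw [← smul_sub, norm_smul, intervalIntegral.integral_comp_add_left,
    intervalIntegral.integral_interval_sub_interval_comm' (hg.intervalIntegrable _ _)
      (hg.intervalIntegrable _ _) (hg.intervalIntegrable _ _)]
  have hk : (0 : ℝ) ≤ k := Nat.cast_nonneg k
  rw [Real.norm_eq_abs, abs_of_nonneg (by positivity)]
  gcongr
  refine (norm_sub_le _ _).trans (add_le_add ?_ ?_)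
  · refine (intervalIntegral.norm_integral_le_of_norm_le_const (fun t _ => hC t)).trans
      (le_of_eq ?_)
    congr 2; ring
  · refine (intervalIntegral.norm_integral_le_of_norm_le_const (fun t _ => hC t)).trans
      (le_of_eq ?_)
    congr 2; ring

theorem exists_ultra_tendsto {X : Type*} [PseudoMetricSpace X] [ProperSpace X] [T2Space X]
    (ω : Ultrafilter ℕ) (b : ℕ → X) (x₀ : X) (C : ℝ) (h : ∀ k, dist (b k) x₀ ≤ C) :
    ∃ l, Tendsto b ω (𝓝 l) := by
  obtain ⟨l, -, hl⟩ := (isCompact_closedBall x₀ C).ultrafilter_le_nhds (ω.map b) (by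
    rw [Filter.le_principal_iff, Ultrafilter.coe_map, Filter.mem_map]
    exact Filter.univ_mem' h)
  exact ⟨l, hl⟩

theorem exists_gt_of_eventually {ω : Ultrafilter ℕ} (hω : (ω : Filter ℕ) ≤ atTop) {g : ℝ → ℝ}
    (hg : Continuous g) {β : ℝ} (h : ∀ᶠ k in (ω : Filter ℕ), β < wm g k) : ∃ t, β < g t := by
  by_contra hcon
  push Not at hcon
  obtain ⟨k, hk1, hk2⟩ := (h.and (hω (eventually_ge_atTop 1))).exists
  have := wm_mono hg continuous_const hcon k
  rw [wm_const β hk2] at this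
  linarith

end wm

variable {H : Type*} [NormedAddCommGroup H] [InnerProductSpace ℂ H] [CompleteSpace H]

theorem exists_wot_limit (ω : Ultrafilter ℕ) (A : ℕ → (H →L[ℂ] H)) (C : ℝ)
    (hC : ∀ k, ‖A k‖ ≤ C) :
    ∃ y : H →L[ℂ] H, ∀ u v, Tendsto (fun k => ⟪u, A k v⟫_ℂ) ω (𝓝 ⟪u, y v⟫_ℂ) := by
  have hC0 : 0 ≤ C := (norm_nonneg _).trans (hC 0)
  have hb : ∀ k u v, ‖⟪A k v, u⟫_ℂ‖ ≤ C * ‖v‖ * ‖u‖ := fun k u v =>
    (norm_inner_le_norm _ _).trans (by
      gcongr
      exact ((A k).le_opNorm v).trans (by gcongr; exact hC k))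
  have hex : ∀ v u, ∃ l, Tendsto (fun k => ⟪A k v, u⟫_ℂ) ω (𝓝 l) := fun v u =>
    exists_ultra_tendsto ω _ 0 (C * ‖v‖ * ‖u‖) fun k => by
      rw [dist_zero_right]; exact hb k u v
  choose B hB using hex
  let Bl : H →ₗ⋆[ℂ] H →ₗ[ℂ] ℂ := LinearMap.mk₂'ₛₗ (starRingEnd ℂ) (RingHom.id ℂ) B
    (fun v₁ v₂ u => tendsto_nhds_unique (hB (v₁ + v₂) u) (by
      simpa only [map_add, inner_add_left] using (hB v₁ u).add (hB v₂ u)))
    (fun c v u => tendsto_nhds_unique (hB (c • v) u) (by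
      simpa only [map_smul, inner_smul_left, smul_eq_mul] using (hB v u).const_mul _))
    (fun v u₁ u₂ => tendsto_nhds_unique (hB v (u₁ + u₂)) (by
      simpa only [inner_add_right] using (hB v u₁).add (hB v u₂)))
    (fun c v u => tendsto_nhds_unique (hB v (c • u)) (by
      simpa only [inner_smul_right, smul_eq_mul, RingHom.id_apply] using (hB v u).const_mul _))
  have hBl : ∀ v u, ‖Bl v u‖ ≤ C * ‖v‖ * ‖u‖ := fun v u =>
    le_of_tendsto' (hB v u).norm fun k => hb k u v
  let Bc : H →L⋆[ℂ] H →L[ℂ] ℂ := LinearMap.mkContinuous₂ Bl C hBl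
  refine ⟨InnerProductSpace.continuousLinearMapOfBilin Bc, fun u v => ?_⟩
  have h1 : ⟪InnerProductSpace.continuousLinearMapOfBilin Bc v, u⟫_ℂ = B v u :=
    InnerProductSpace.continuousLinearMapOfBilin_apply Bc v u
  have h2 := (Complex.continuous_conj.tendsto _).comp (hB v u)
  rw [← h1, inner_conj_symm] at h2
  refine h2.congr fun k => ?_
  simp only [Function.comp_apply, inner_conj_symm]

theorem continuous_inner_flow (S : ModularDatum H) (x : H →L[ℂ] H) (u v : H) :
    Continuous fun t : ℝ => ⟪u, S.flow t x v⟫_ℂ :=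
  continuous_const.inner (continuous_flow_apply S x v)

theorem ergodic_mean (S : ModularDatum H) (herg : S.Ergodic) (ω : Ultrafilter ℕ)
    (hω : (ω : Filter ℕ) ≤ atTop) {x : H →L[ℂ] H} (hx : x ∈ S.M) (u v : H) :
    Tendsto (wm fun t => ⟪u, S.flow t x v⟫_ℂ) ω (𝓝 (⟪S.vac, x S.vac⟫_ℂ * ⟪u, v⟫_ℂ)) := by
  have hA : ∀ k : ℕ, ∃ A ∈ S.M, ‖A‖ ≤ ‖x‖ ∧
      ∀ u v, ⟪u, A v⟫_ℂ = wm (fun t => ⟪u, S.flow t x v⟫_ℂ) k := by
    intro k
    have hk : (0 : ℝ) ≤ k := Nat.cast_nonneg k
    have hG : Integrable (fun _ : ℝ => (((2 * k : ℝ)⁻¹ : ℝ) : ℂ))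
        (volume.restrict (Set.Ioc (-(k : ℝ)) k)) := by
      exact integrable_const _
    obtain ⟨y, hy, hy1, hy2⟩ := exists_smear S _ _ hG 1 hx
    refine ⟨y, hy, hy1.trans ?_, fun u v => ?_⟩
    · have : (∫ _ in Set.Ioc (-(k : ℝ)) k, ‖(((2 * k : ℝ)⁻¹ : ℝ) : ℂ)‖) ≤ 1 := by
        rw [setIntegral_const, Real.volume_real_Ioc_of_le (by linarith), Complex.norm_real,
          Real.norm_eq_abs, abs_of_nonneg (by positivity), smul_eq_mul,
          show (k : ℝ) - -(k : ℝ) = 2 * k by ring]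
        exact mul_inv_le_one
      nlinarith [norm_nonneg x]
    · rw [hy2, ← integral_inner (integrable_smul_flow S _ _ hG 1 x v)]
      unfold wm
      rw [intervalIntegral.integral_of_le (by linarith), ← integral_smul]
      congr 1; ext t
      rw [inner_smul_right, one_mul, Complex.real_smul]
  choose A hAM hAn hAi using hA
  obtain ⟨y, hy⟩ := exists_wot_limit ω A ‖x‖ hAn
  have hyM : y ∈ S.M := by
    refine mem_of_comm _ _ fun z hz => ?_
    ext v
    refine ext_inner_left ℂ fun u => ?_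
    change ⟪u, z (y v)⟫_ℂ = ⟪u, y (z v)⟫_ℂ
    rw [← inner_star_left]
    refine tendsto_nhds_unique (hy (star z u) v) ((hy u (z v)).congr fun k => ?_)
    rw [inner_star_left, comm_of_mem (hAM k) hz]
  have hyinv : ∀ s, S.flow s y = y := by
    intro s
    ext v
    refine ext_inner_left ℂ fun u => ?_
    rw [flow_apply, inner_wave_right]
    refine tendsto_nhds_unique (hy _ _) ?_
    have h1 := (wm_translate (continuous_inner_flow S x u v) (‖u‖ * (‖x‖ * ‖v‖)) (fun t =>
      (norm_inner_le_norm _ _).trans (by gcongr; exact norm_flow_apply_le S t x v)) s).mono_left hω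
    have h2 := h1.add (hy u v)
    rw [zero_add] at h2
    refine h2.congr fun k => ?_
    rw [hAi, hAi, sub_add_cancel]
    congr 1; ext t
    rw [← inner_wave_right, flow_apply, flow_apply, wave_wave, wave_wave]
    congr 4; ring_nf
  obtain ⟨c, hc⟩ := herg y hyM hyinv
  have hcv : c = ⟪S.vac, x S.vac⟫_ℂ := by
    have h1 := hy S.vac S.vac
    have h2 : ⟪S.vac, y S.vac⟫_ℂ = c := by
      rw [hc]
      simp [inner_self_eq_norm_sq_to_K, S.norm_vac]
    rw [h2] at h1
    refine tendsto_nhds_unique h1 (tendsto_const_nhds.congr' ?_)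
    filter_upwards [hω (eventually_ge_atTop 1)] with k hk
    rw [hAi]
    have : (fun t => ⟪S.vac, S.flow t x S.vac⟫_ℂ) = fun _ => ⟪S.vac, x S.vac⟫_ℂ := by
      ext t
      rw [flow_vac, inner_wave_right, wave_vac]
    rw [this, wm_const _ hk]
  have h3 := hy u v
  rw [hc, hcv] at h3
  simp only [_root_.smul_apply, one_apply_eq_self, inner_smul_right] at h3
  exact h3.congr fun k => hAi k u v

theorem ergodic_mean_re (S : ModularDatum H) (herg : S.Ergodic) (ω : Ultrafilter ℕ)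
    (hω : (ω : Filter ℕ) ≤ atTop) {x : H →L[ℂ] H} (hx : x ∈ S.M) (u v : H) :
    Tendsto (wm fun t => (⟪u, S.flow t x v⟫_ℂ).re) ω
      (𝓝 (⟪S.vac, x S.vac⟫_ℂ * ⟪u, v⟫_ℂ).re) := by
  have := (Complex.continuous_re.tendsto _).comp (ergodic_mean S herg ω hω hx u v)
  refine this.congr fun k => ?_
  rw [wm_re (continuous_inner_flow S x u v)]; rfl

theorem ergodic_mean_re_neg (S : ModularDatum H) (herg : S.Ergodic) (ω : Ultrafilter ℕ)
    (hω : (ω : Filter ℕ) ≤ atTop) {x : H →L[ℂ] H} (hx : x ∈ S.M) (u v : H) :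
    Tendsto (wm fun t => (⟪u, S.flow (-t) x v⟫_ℂ).re) ω
      (𝓝 (⟪S.vac, x S.vac⟫_ℂ * ⟪u, v⟫_ℂ).re) := by
  refine (ergodic_mean_re S herg ω hω hx u v).congr fun k => ?_
  exact (wm_neg_arg (fun t => (⟪u, S.flow t x v⟫_ℂ).re) k).symm

end Crest.Agent.H3Mod
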